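import Mathlib

namespace Vale.Agent.Results.P201.CosetUniqueProducts

open MonoidAlgebra

variable {G : Type*} [Group G]

/-- If the finite nonempty set S lies in the left coset g0 H of a subgroup H with the
unique-product property, and T is any finite nonempty subset of G, then some element of S T
has exactly one expression s t. -/
lemma exists_uniqueMul_left (H : Subgroup G) [UniqueProds H] (g₀ : G) (S T : Finset G)
    (hS : S.Nonempty) (hT : T.Nonempty) (hcos : ∀ g ∈ S, g₀⁻¹ * g ∈ H) :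
    ∃ s ∈ S, ∃ t ∈ T, UniqueMul S T s t := by
  classical
  obtain ⟨c, hc⟩ := hT
  obtain ⟨s1, hs1⟩ := hS
  set AH : Finset H := (S.image (fun g => g₀⁻¹ * g)).subtype (· ∈ H) with hAH
  set BH : Finset H := (T.image (fun g => g * c⁻¹)).subtype (· ∈ H) with hBH
  have hAne : AH.Nonempty := by
    refine ⟨⟨g₀⁻¹ * s1, hcos s1 hs1⟩, ?_⟩
    rw [hAH, Finset.mem_subtype]
    exact Finset.mem_image_of_mem _ hs1
  have hBne : BH.Nonempty := by
    refine ⟨⟨1, H.one_mem⟩, ?_⟩
    rw [hBH, Finset.mem_subtype]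
    rw [Finset.mem_image]
    exact ⟨c, hc, by simp⟩
  obtain ⟨a0, ha0, b0, hb0, huniq⟩ := UniqueProds.uniqueMul_of_nonempty hAne hBne
  have ha0' : g₀ * (a0 : G) ∈ S := by
    rw [hAH, Finset.mem_subtype, Finset.mem_image] at ha0
    obtain ⟨g, hg, hge⟩ := ha0
    have : g₀ * (a0 : G) = g := by rw [← hge]; group
    rw [this]; exact hg
  have hb0' : (b0 : G) * c ∈ T := by
    rw [hBH, Finset.mem_subtype, Finset.mem_image] at hb0
    obtain ⟨g, hg, hge⟩ := hb0
    have : (b0 : G) * c = g := by rw [← hge]; group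
    rw [this]; exact hg
  refine ⟨g₀ * (a0 : G), ha0', (b0 : G) * c, hb0', ?_⟩
  intro a b ha hb hab
  have haH : g₀⁻¹ * a ∈ H := hcos a ha
  have hbeq : b * c⁻¹ = (g₀⁻¹ * a)⁻¹ * ((a0 : G) * (b0 : G)) := by
    have h1 : b = a⁻¹ * (g₀ * (a0 : G) * ((b0 : G) * c)) := by rw [← hab]; group
    rw [h1]; group
  have hbH : b * c⁻¹ ∈ H := by
    rw [hbeq]
    exact H.mul_mem (H.inv_mem haH) (H.mul_mem a0.2 b0.2)
  have hamem : (⟨g₀⁻¹ * a, haH⟩ : H) ∈ AH := by
    rw [hAH, Finset.mem_subtype]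
    exact Finset.mem_image_of_mem _ ha
  have hbmem : (⟨b * c⁻¹, hbH⟩ : H) ∈ BH := by
    rw [hBH, Finset.mem_subtype]
    exact Finset.mem_image_of_mem (fun g => g * c⁻¹) hb
  have hprod : (⟨g₀⁻¹ * a, haH⟩ : H) * ⟨b * c⁻¹, hbH⟩ = a0 * b0 := by
    apply Subtype.ext
    simp only [Subgroup.coe_mul]
    rw [hbeq]; group
  obtain ⟨e1, e2⟩ := huniq hamem hbmem hprod
  have e1' : g₀⁻¹ * a = (a0 : G) := congrArg Subtype.val e1
  have e2' : b * c⁻¹ = (b0 : G) := congrArg Subtype.val e2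
  constructor
  · rw [← e1']; group
  · rw [← e2']; group

/-- The mirror statement: some element of T S has exactly one expression t s. -/
lemma exists_uniqueMul_right (H : Subgroup G) [UniqueProds H] (g₀ : G) (S T : Finset G)
    (hS : S.Nonempty) (hT : T.Nonempty) (hcos : ∀ g ∈ S, g₀⁻¹ * g ∈ H) :
    ∃ t ∈ T, ∃ s ∈ S, UniqueMul T S t s := by
  classical
  obtain ⟨c, hc⟩ := hT
  obtain ⟨s1, hs1⟩ := hS
  set AH : Finset H := (S.image (fun g => g₀⁻¹ * g)).subtype (· ∈ H) with hAH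
  set BH : Finset H := (T.image (fun g => g₀⁻¹ * c⁻¹ * g * g₀)).subtype (· ∈ H) with hBH
  have hAne : AH.Nonempty := by
    refine ⟨⟨g₀⁻¹ * s1, hcos s1 hs1⟩, ?_⟩
    rw [hAH, Finset.mem_subtype]
    exact Finset.mem_image_of_mem _ hs1
  have hBne : BH.Nonempty := by
    refine ⟨⟨1, H.one_mem⟩, ?_⟩
    rw [hBH, Finset.mem_subtype]
    rw [Finset.mem_image]
    exact ⟨c, hc, by group⟩
  obtain ⟨b0, hb0, a0, ha0, huniq⟩ := UniqueProds.uniqueMul_of_nonempty hBne hAne
  have ha0' : g₀ * (a0 : G) ∈ S := by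
    rw [hAH, Finset.mem_subtype, Finset.mem_image] at ha0
    obtain ⟨g, hg, hge⟩ := ha0
    have : g₀ * (a0 : G) = g := by rw [← hge]; group
    rw [this]; exact hg
  have hb0' : c * g₀ * (b0 : G) * g₀⁻¹ ∈ T := by
    rw [hBH, Finset.mem_subtype, Finset.mem_image] at hb0
    obtain ⟨g, hg, hge⟩ := hb0
    have : c * g₀ * (b0 : G) * g₀⁻¹ = g := by rw [← hge]; group
    rw [this]; exact hg
  refine ⟨c * g₀ * (b0 : G) * g₀⁻¹, hb0', g₀ * (a0 : G), ha0', ?_⟩
  intro b a hb ha hba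
  have haH : g₀⁻¹ * a ∈ H := hcos a ha
  have hbeq : g₀⁻¹ * c⁻¹ * b * g₀ = ((b0 : G) * (a0 : G)) * (g₀⁻¹ * a)⁻¹ := by
    have h1 : b = (c * g₀ * (b0 : G) * g₀⁻¹ * (g₀ * (a0 : G))) * a⁻¹ := by rw [← hba]; group
    rw [h1]; group
  have hbH : g₀⁻¹ * c⁻¹ * b * g₀ ∈ H := by
    rw [hbeq]
    exact H.mul_mem (H.mul_mem b0.2 a0.2) (H.inv_mem haH)
  have hamem : (⟨g₀⁻¹ * a, haH⟩ : H) ∈ AH := by
    rw [hAH, Finset.mem_subtype]
    exact Finset.mem_image_of_mem _ ha
  have hbmem : (⟨g₀⁻¹ * c⁻¹ * b * g₀, hbH⟩ : H) ∈ BH := by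
    rw [hBH, Finset.mem_subtype]
    exact Finset.mem_image_of_mem (fun g => g₀⁻¹ * c⁻¹ * g * g₀) hb
  have hprod : (⟨g₀⁻¹ * c⁻¹ * b * g₀, hbH⟩ : H) * ⟨g₀⁻¹ * a, haH⟩ = b0 * a0 := by
    apply Subtype.ext
    simp only [Subgroup.coe_mul]
    rw [hbeq]; group
  obtain ⟨e2, e1⟩ := huniq hbmem hamem hprod
  have e1' : g₀⁻¹ * a = (a0 : G) := congrArg Subtype.val e1
  have e2' : g₀⁻¹ * c⁻¹ * b * g₀ = (b0 : G) := congrArg Subtype.val e2
  constructor
  · rw [← e2']; group
  · rw [← e1']; group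

/-- Let G be any group, K a field, H a subgroup of G with the unique-product property and g0 an
element of G. If the support of alpha lies in the left coset g0 H, then alpha is not a zero
divisor of the group algebra K[G] on either side: alpha * beta = 0 or beta * alpha = 0 forces
alpha = 0 or beta = 0. -/
theorem result {K G : Type*} [Field K] [Group G] (H : Subgroup G) [UniqueProds H] (g₀ : G)
    (α β : MonoidAlgebra K G) (hα : ∀ g ∈ α.coeff.support, g₀⁻¹ * g ∈ H) :
    (α * β = 0 → α = 0 ∨ β = 0) ∧ (β * α = 0 → α = 0 ∨ β = 0) := by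
  constructor
  · intro hab
    by_contra hcon
    rw [not_or] at hcon
    have hαne : α.coeff.support.Nonempty := by
      rw [Finsupp.support_nonempty_iff]; intro h; exact hcon.1 (coeff_eq_zero.mp h)
    have hβne : β.coeff.support.Nonempty := by
      rw [Finsupp.support_nonempty_iff]; intro h; exact hcon.2 (coeff_eq_zero.mp h)
    obtain ⟨s, hs, t, ht, hu⟩ := exists_uniqueMul_left H g₀ _ _ hαne hβne hα
    have h1 := coeff_mul_mul_of_uniqueMul hu
    rw [hab] at h1
    rw [Finsupp.mem_support_iff] at hs ht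
    have : α.coeff s * β.coeff t = 0 := by rw [← h1]; simp
    rcases mul_eq_zero.mp this with h | h
    · exact hs h
    · exact ht h
  · intro hba
    by_contra hcon
    rw [not_or] at hcon
    have hαne : α.coeff.support.Nonempty := by
      rw [Finsupp.support_nonempty_iff]; intro h; exact hcon.1 (coeff_eq_zero.mp h)
    have hβne : β.coeff.support.Nonempty := by
      rw [Finsupp.support_nonempty_iff]; intro h; exact hcon.2 (coeff_eq_zero.mp h)
    obtain ⟨t, ht, s, hs, hu⟩ := exists_uniqueMul_right H g₀ _ _ hαne hβne hα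
    have h1 := coeff_mul_mul_of_uniqueMul hu
    rw [hba] at h1
    rw [Finsupp.mem_support_iff] at hs ht
    have : β.coeff t * α.coeff s = 0 := by rw [← h1]; simp
    rcases mul_eq_zero.mp this with h | h
    · exact ht h
    · exact hs h

end Vale.Agent.Results.P201.CosetUniqueProducts
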